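import Vale.Agent.P004G.H357.Trig

/-!
# P004G (helper357): the barrier `1 - (1 - cos^{2M}(x/2B))^r`
-/

open Finset Real

namespace P004G.H357

/-- the barrier -/
noncomputable def bar (B : ℝ) (M r : ℕ) (x : ℝ) : ℝ :=
  1 - (1 - Real.cos (x / (2 * B)) ^ (2 * M)) ^ r

lemma cos_pow_mem (y : ℝ) (M : ℕ) : 0 ≤ Real.cos y ^ (2 * M) ∧ Real.cos y ^ (2 * M) ≤ 1 := by
  rw [pow_mul]
  exact ⟨by positivity, pow_le_one₀ (sq_nonneg _) (Real.cos_sq_le_one y)⟩

lemma bar_nonneg (B : ℝ) (M r : ℕ) (x : ℝ) : 0 ≤ bar B M r x := by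
  unfold bar
  have h := cos_pow_mem (x / (2 * B)) M
  have : (1 - Real.cos (x / (2 * B)) ^ (2 * M)) ^ r ≤ 1 :=
    pow_le_one₀ (by linarith [h.2]) (by linarith [h.1])
  linarith

lemma bar_le_one (B : ℝ) (M r : ℕ) (x : ℝ) : bar B M r x ≤ 1 := by
  unfold bar
  have h := cos_pow_mem (x / (2 * B)) M
  have : 0 ≤ (1 - Real.cos (x / (2 * B)) ^ (2 * M)) ^ r :=
    pow_nonneg (by linarith [h.2]) _
  linarith

lemma bar_TP {B : ℝ} (hB : 0 < B) (M r : ℕ) :
    TP (1 + 2 ^ r) (r * (M / B)) (fun x => (bar B M r x : ℂ)) := by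
  have h1 : TP 1 (M / B) (fun x => (Real.cos (x / (2 * B)) : ℂ) ^ (2 * M)) := by
    refine (((TP.cos (1 / (2 * B))).pow (2 * M)).mono (by simp) (le_of_eq ?_)).congr fun x => ?_
    · rw [abs_of_pos (by positivity)]
      push_cast
      field_simp
    · rw [show 1 / (2 * B) * x = x / (2 * B) by ring]
  have h2 : TP (1 + 1) (max 0 (M / B)) (fun x => 1 + (-1) *
      (Real.cos (x / (2 * B)) : ℂ) ^ (2 * M)) := by
    have ha := TP.const 1
    have hb := (TP.const (-1)).mul h1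
    refine (ha.add hb).mono (by simp) (by simp)
  have h3 := (h2.pow r)
  have h4 := (TP.const 1).add ((TP.const (-1)).mul h3)
  have h0 : 0 ≤ (M : ℝ) / B := by positivity
  refine (h4.mono (le_of_eq ?_) (le_of_eq ?_)).congr fun x => ?_
  · simp; norm_num
  · rw [max_eq_right h0, max_eq_right (by positivity)]; ring
  · unfold bar
    push_cast
    ring

lemma bar_upper {B : ℝ} (hB : 0 < B) (M r : ℕ) {x : ℝ} (hx : |x| ≤ π * B) :
    bar B M r x ≤ r * Real.exp (-(M * x ^ 2 / (π ^ 2 * B ^ 2))) := by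
  have h := cos_pow_mem (x / (2 * B)) M
  have hb : 1 - r * Real.cos (x / (2 * B)) ^ (2 * M) ≤
      (1 - Real.cos (x / (2 * B)) ^ (2 * M)) ^ r := by
    have := one_add_mul_le_pow (a := -Real.cos (x / (2 * B)) ^ (2 * M)) (by linarith [h.2]) r
    calc _ = 1 + r * (-Real.cos (x / (2 * B)) ^ (2 * M)) := by ring
      _ ≤ _ := this
      _ = _ := by ring
  have hy : |x / (2 * B)| ≤ π / 2 := by
    rw [abs_div, abs_of_pos (by positivity : 0 < 2 * B), div_le_div_iff₀ (by positivity) (by norm_num)]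
    linarith
  have hc0 : 0 ≤ Real.cos (x / (2 * B)) := Real.cos_nonneg_of_mem_Icc
    ⟨by linarith [(abs_le.1 hy).1], (abs_le.1 hy).2⟩
  have hc1 : Real.cos (x / (2 * B)) ≤ Real.exp (-(2 / π ^ 2 * (x / (2 * B)) ^ 2)) := by
    have h1 := Real.cos_le_one_sub_mul_cos_sq (x := x / (2 * B)) (by linarith [Real.pi_pos])
    have h2 := Real.add_one_le_exp (-(2 / π ^ 2 * (x / (2 * B)) ^ 2))
    linarith
  have hc2 : Real.cos (x / (2 * B)) ^ (2 * M) ≤ Real.exp (-(M * x ^ 2 / (π ^ 2 * B ^ 2))) := by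
    refine (pow_le_pow_left₀ hc0 hc1 _).trans (le_of_eq ?_)
    rw [← Real.exp_nat_mul]
    congr 1
    push_cast
    field_simp
  unfold bar
  have : (r : ℝ) * Real.cos (x / (2 * B)) ^ (2 * M) ≤
      r * Real.exp (-(M * x ^ 2 / (π ^ 2 * B ^ 2))) := by gcongr
  linarith

lemma exp_neg_two_mul_le {t : ℝ} (h0 : 0 ≤ t) (h1 : t ≤ 1 / 2) : Real.exp (-(2 * t)) ≤ 1 - t := by
  have h2 := Real.add_one_le_exp (2 * t)
  have h3 : 0 < 1 - t := by linarith
  rw [Real.exp_neg, inv_le_comm₀ (Real.exp_pos _) h3]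
  refine le_trans ?_ h2
  rw [inv_le_comm₀ h3 (by linarith)]
  rw [inv_le_comm₀ (by linarith) h3]
  rw [inv_eq_one_div, div_le_iff₀ h3]
  nlinarith

lemma bar_lower {B : ℝ} (hB : 0 < B) (M r : ℕ) {x : ℝ} (hx : |x| ≤ 2 * B) :
    1 - bar B M r x ≤ Real.exp (-(r * Real.exp (-(M * x ^ 2 / (2 * B ^ 2))))) := by
  have h := cos_pow_mem (x / (2 * B)) M
  have hy : |x / (2 * B)| ≤ 1 := by
    rw [abs_div, abs_of_pos (by positivity : 0 < 2 * B), div_le_one (by positivity)]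
    linarith
  have hy2 : (x / (2 * B)) ^ 2 ≤ 1 := by
    rw [← sq_abs]; exact pow_le_one₀ (abs_nonneg _) hy
  have hc : Real.exp (-((x / (2 * B)) ^ 2)) ≤ Real.cos (x / (2 * B)) := by
    have h1 := Real.one_sub_sq_div_two_le_cos (x := x / (2 * B))
    have h2 := exp_neg_two_mul_le (t := (x / (2 * B)) ^ 2 / 2) (by positivity) (by linarith)
    have h3 : 2 * ((x / (2 * B)) ^ 2 / 2) = (x / (2 * B)) ^ 2 := by ring
    rw [h3] at h2
    linarith
  have hc2 : Real.exp (-(M * x ^ 2 / (2 * B ^ 2))) ≤ Real.cos (x / (2 * B)) ^ (2 * M) := by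
    refine le_trans (le_of_eq ?_) (pow_le_pow_left₀ (Real.exp_pos _).le hc (2 * M))
    rw [← Real.exp_nat_mul]
    congr 1
    push_cast
    field_simp
  unfold bar
  rw [sub_sub_cancel]
  have h4 : 1 - Real.cos (x / (2 * B)) ^ (2 * M) ≤
      Real.exp (-(Real.exp (-(M * x ^ 2 / (2 * B ^ 2))))) := by
    have := Real.add_one_le_exp (-(Real.exp (-(M * x ^ 2 / (2 * B ^ 2)))))
    linarith
  refine (pow_le_pow_left₀ (by linarith [h.2]) h4 r).trans (le_of_eq ?_)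
  rw [← Real.exp_nat_mul]
  congr 1
  ring

lemma lin_le_exp {c : ℝ} (hc : 0 < c) (y : ℝ) : y ≤ 1 / c * Real.exp (c * y) := by
  have := Real.add_one_le_exp (c * y)
  rw [div_mul_eq_mul_div, le_div_iff₀ hc]
  linarith

/-- the numerical estimate for the degree -/
lemma deg_est {η l W Z k r : ℝ} (hη : 0 < η) (hη1 : η ≤ 1) (hl : 1 ≤ l)
    (hW : W = l * Real.exp (η * l / 25)) (hWp : 1 ≤ W) (hr2 : r ≤ 2 * W) (hZ1 : 1 ≤ Z)
    (hZ2 : Z ≤ 243 / η * W) (hk2 : k ≤ 221 * Z ^ 2 * l) :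
    r + 1 + k + Z ≤ 10 ^ 9 / η ^ 5 * Real.exp (η * l) := by
  have hl0 : 0 < l := by linarith
  have hη2 : 1 ≤ 1 / η ^ 2 := by
    rw [le_div_iff₀ (by positivity)]
    have : η ^ 2 ≤ 1 := pow_le_one₀ hη.le hη1
    linarith
  have hη3 : 1 / η ≤ 1 / η ^ 2 := by
    apply one_div_le_one_div_of_le (by positivity)
    nlinarith
  have h1 : Z ^ 2 ≤ (243 / η * W) ^ 2 := pow_le_pow_left₀ (by linarith) hZ2 2
  have hWl : W ≤ W ^ 2 * l := by
    calc W = W * 1 * 1 := by ring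
      _ ≤ W * W * l := by gcongr
      _ = W ^ 2 * l := by ring
  set U : ℝ := 1 / η ^ 2 * (W ^ 2 * l) with hU
  have h2 : k ≤ 13049829 * U := by
    calc k ≤ 221 * Z ^ 2 * l := hk2
      _ ≤ 221 * (243 / η * W) ^ 2 * l := by gcongr
      _ = 13049829 * U := by
          rw [hU]; field_simp; ring
  have hb : W ≤ U := by
    calc W ≤ 1 * (W ^ 2 * l) := by linarith
      _ ≤ U := by rw [hU]; gcongr
  have h3 : Z ≤ 243 * U := by
    calc Z ≤ 243 / η * W := hZ2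
      _ = 243 * (1 / η * W) := by ring
      _ ≤ 243 * (1 / η ^ 2 * (W ^ 2 * l)) := by gcongr
      _ = 243 * U := by rw [hU]
  have h4 : W ^ 2 * l ≤ (1 / (3 / 10 * η)) ^ 3 * Real.exp (η * l) := by
    have e1 := lin_le_exp (c := 3 / 10 * η) (by positivity) l
    have e2 : l ^ 3 ≤ (1 / (3 / 10 * η) * Real.exp (3 / 10 * η * l)) ^ 3 :=
      pow_le_pow_left₀ hl0.le e1 3
    have e3 : W ^ 2 * l = l ^ 3 * Real.exp (2 * (η * l / 25)) := by
      rw [hW, mul_pow, ← Real.exp_nat_mul]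
      push_cast; ring
    rw [e3]
    calc l ^ 3 * Real.exp (2 * (η * l / 25))
        ≤ (1 / (3 / 10 * η) * Real.exp (3 / 10 * η * l)) ^ 3 * Real.exp (2 * (η * l / 25)) := by
          gcongr
      _ = (1 / (3 / 10 * η)) ^ 3 *
          Real.exp (3 * (3 / 10 * η * l) + 2 * (η * l / 25)) := by
          rw [mul_pow, ← Real.exp_nat_mul, Real.exp_add]
          push_cast; ring
      _ ≤ _ := by
          gcongr
          nlinarith [mul_pos hη hl0]
  have h5 : (1 / (3 / 10 * η)) ^ 3 = 1000 / 27 * (1 / η ^ 3) := by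
    field_simp; norm_num
  rw [h5] at h4
  have h6 : (1 : ℝ) ≤ U := by linarith
  calc r + 1 + k + Z ≤ 2 * W + 1 + 13049829 * U + 243 * U := by linarith
    _ ≤ 13100000 * U := by linarith
    _ ≤ 13100000 * (1 / η ^ 2 * (1000 / 27 * (1 / η ^ 3) * Real.exp (η * l))) := by
        rw [hU]; gcongr
    _ = 13100000 * 1000 / 27 / η ^ 5 * Real.exp (η * l) := by
        field_simp
    _ ≤ 10 ^ 9 / η ^ 5 * Real.exp (η * l) := by
        gcongr
        norm_num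

lemma bar_small {η l B : ℝ} {M r : ℕ} (hη : 0 < η) (hη1 : η ≤ 1) (hl : 1 ≤ l) (hBdef : B = 6 * l)
    (hM2 : (M : ℝ) ≤ 721 * l / η) (hr1 : l * Real.exp (η * l / 25) ≤ r) {x : ℝ}
    (hx : |x| ≤ η * l / 16) : 1 - bar B M r x ≤ Real.exp (-l) := by
  have hl0 : 0 < l := by linarith
  have hB : 0 < B := by rw [hBdef]; positivity
  have hx2 : x ^ 2 ≤ (η * l / 16) ^ 2 := by
    rw [← sq_abs x]; exact pow_le_pow_left₀ (abs_nonneg _) hx 2
  have hxB : |x| ≤ 2 * B := by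
    refine hx.trans ?_
    rw [hBdef]
    nlinarith
  refine (bar_lower hB M r hxB).trans (Real.exp_le_exp.2 ?_)
  have h1 : M * x ^ 2 / (2 * B ^ 2) ≤ η * l / 25 := by
    have : (M : ℝ) * x ^ 2 ≤ 721 * l / η * (η * l / 16) ^ 2 := by gcongr
    rw [div_le_iff₀ (by positivity)]
    refine this.trans ?_
    have e : 721 * l / η * (η * l / 16) ^ 2 = 721 / 256 * (η * l ^ 3) := by
      field_simp
      norm_num
    rw [e, hBdef]
    have : η * l / 25 * (2 * (6 * l) ^ 2) = 72 / 25 * (η * l ^ 3) := by ring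
    rw [this]
    have : 0 ≤ η * l ^ 3 := by positivity
    nlinarith
  have h2 : l ≤ r * Real.exp (-(M * x ^ 2 / (2 * B ^ 2))) := by
    calc l = (l * Real.exp (η * l / 25)) * Real.exp (-(η * l / 25)) := by
          rw [mul_assoc, ← Real.exp_add]; simp
      _ ≤ r * Real.exp (-(M * x ^ 2 / (2 * B ^ 2))) := by gcongr
  linarith

lemma bar_exp_le {η l B : ℝ} {M r : ℕ} (hη : 0 < η) (hη1 : η ≤ 1) (hl : 1 ≤ l) (hBdef : B = 6 * l)
    (hM1 : 720 * l / η ≤ (M : ℝ)) (hr2 : (r : ℝ) ≤ 2 * (l * Real.exp (η * l / 25))) (x : ℝ) :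
    Real.exp (-x) * bar B M r x ≤
      10 ^ 9 / η ^ 5 * Real.exp (η * l / 4) + Real.exp (3 * |x| - 37 * l) := by
  have hl0 : 0 < l := by linarith
  have hB : 0 < B := by rw [hBdef]; positivity
  by_cases hx : |x| ≤ π * B
  · have h1 := bar_upper hB M r hx
    have h2 : 2 * x ^ 2 / (η * l) ≤ M * x ^ 2 / (π ^ 2 * B ^ 2) := by
      rw [div_le_div_iff₀ (by positivity) (by positivity)]
      have hπ : π ^ 2 ≤ 10 := by
        have := Real.pi_lt_d2
        nlinarith [Real.pi_pos]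
      have h7 : 720 * l / η * (x ^ 2 * (η * l)) ≤ M * (x ^ 2 * (η * l)) := by gcongr
      have e : 720 * l / η * (x ^ 2 * (η * l)) = 720 * (x ^ 2 * l ^ 2) := by
        field_simp
      rw [e] at h7
      have h3 : 2 * x ^ 2 * (π ^ 2 * B ^ 2) ≤ 720 * (x ^ 2 * l ^ 2) := by
        have e2 : 2 * x ^ 2 * (π ^ 2 * B ^ 2) = 72 * π ^ 2 * (x ^ 2 * l ^ 2) := by
          rw [hBdef]; ring
        rw [e2]
        have : 0 ≤ x ^ 2 * l ^ 2 := by positivity
        gcongr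
        linarith
      linarith
    have h3 : |x| - 2 * x ^ 2 / (η * l) ≤ η * l / 8 := by
      have h4 : (0 : ℝ) < η * l := by positivity
      have h5 : |x| * (η * l) - 2 * x ^ 2 ≤ (η * l) ^ 2 / 8 := by
        have := sq_abs x
        nlinarith [sq_nonneg (η * l - 4 * |x|)]
      have h6 : |x| - 2 * x ^ 2 / (η * l) = (|x| * (η * l) - 2 * x ^ 2) / (η * l) := by
        field_simp
      rw [h6, div_le_iff₀ h4]
      linarith
    have h8 : 25 / η ≤ 10 ^ 9 / η ^ 5 := by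
      have h9 : η ^ 4 ≤ 1 := pow_le_one₀ hη.le hη1
      rw [div_le_div_iff₀ hη (by positivity)]
      have e : 25 * η ^ 5 = 25 * η ^ 4 * η := by ring
      rw [e]
      gcongr
      linarith
    have h7 : Real.exp (-x) * bar B M r x ≤ 10 ^ 9 / η ^ 5 * Real.exp (η * l / 4) := by
      calc Real.exp (-x) * bar B M r x
          ≤ Real.exp |x| * (r * Real.exp (-(2 * x ^ 2 / (η * l)))) := by
            refine mul_le_mul (Real.exp_le_exp.2 (neg_le_abs x)) (h1.trans ?_)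
              (bar_nonneg _ _ _ _) (Real.exp_pos _).le
            gcongr
        _ = r * Real.exp (|x| - 2 * x ^ 2 / (η * l)) := by
            rw [sub_eq_add_neg, Real.exp_add]; ring
        _ ≤ (2 * (l * Real.exp (η * l / 25))) * Real.exp (η * l / 8) := by gcongr
        _ = 2 * l * Real.exp (η * l / 25 + η * l / 8) := by rw [Real.exp_add]; ring
        _ ≤ 2 * (1 / (2 / 25 * η) * Real.exp (2 / 25 * η * l)) *
            Real.exp (η * l / 25 + η * l / 8) := by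
            gcongr
            exact lin_le_exp (c := 2 / 25 * η) (by positivity) l
        _ = 25 / η * Real.exp (2 / 25 * η * l + (η * l / 25 + η * l / 8)) := by
            rw [Real.exp_add (2 / 25 * η * l)]
            field_simp
        _ ≤ 10 ^ 9 / η ^ 5 * Real.exp (η * l / 4) := by
            gcongr
            nlinarith [mul_pos hη hl0]
    have h10 : 0 < Real.exp (3 * |x| - 37 * l) := Real.exp_pos _
    linarith
  · rw [not_le] at hx
    have h1 : Real.exp (-x) * bar B M r x ≤ Real.exp (3 * |x| - 37 * l) := by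
      calc Real.exp (-x) * bar B M r x ≤ Real.exp |x| * 1 :=
            mul_le_mul (Real.exp_le_exp.2 (neg_le_abs x)) (bar_le_one _ _ _ _)
              (bar_nonneg _ _ _ _) (Real.exp_pos _).le
        _ ≤ _ := by
            rw [mul_one]
            apply Real.exp_le_exp.2
            have := Real.pi_gt_d2
            rw [hBdef] at hx
            nlinarith
    have h2 : 0 ≤ 10 ^ 9 / η ^ 5 * Real.exp (η * l / 4) := by positivity
    linarith

lemma half_pow_est {Z l : ℝ} {r k : ℕ} (hl : 1 ≤ l) (hZ1 : 1 ≤ Z)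
    (hk1 : 220 * Z ^ 2 * l ≤ (k : ℝ)) :
    1 * (1 + 2 ^ r) * (1 / 2 : ℝ) ^ (r + 1 + k + 1) ≤ Real.exp (-(100 * Z ^ 2 * l) - 10 * l) := by
  have hl0 : 0 < l := by linarith
  have hA : (1 : ℝ) * (1 + 2 ^ r) ≤ 2 ^ (r + 1) := by
    have : (1 : ℝ) ≤ 2 ^ r := one_le_pow₀ (by norm_num)
    rw [pow_succ]; linarith
  have h2 : (1 / 2 : ℝ) ^ k ≤ Real.exp (-((k : ℝ) / 2)) := by
    have : (1 / 2 : ℝ) ≤ Real.exp (-(1 / 2)) := by
      have := Real.add_one_le_exp (-(1 / 2) : ℝ); linarith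
    calc (1 / 2 : ℝ) ^ k ≤ (Real.exp (-(1 / 2))) ^ k := by gcongr
      _ = _ := by rw [← Real.exp_nat_mul]; ring_nf
  calc 1 * (1 + 2 ^ r) * (1 / 2 : ℝ) ^ (r + 1 + k + 1)
      ≤ 2 ^ (r + 1) * (1 / 2 : ℝ) ^ (r + 1 + k + 1) := by gcongr
    _ = (2 ^ (r + 1) * (1 / 2 : ℝ) ^ (r + 1)) * (1 / 2) ^ k * (1 / 2) := by
        rw [pow_succ _ (r + 1 + k), pow_add _ (r + 1) k]; ring
    _ = (1 / 2 : ℝ) ^ k * (1 / 2) := by rw [← mul_pow]; norm_num
    _ ≤ (1 / 2 : ℝ) ^ k * 1 := by gcongr; norm_num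
    _ ≤ Real.exp (-((k : ℝ) / 2)) := by rw [mul_one]; exact h2
    _ ≤ _ := by
        apply Real.exp_le_exp.2
        have : 1 ≤ Z ^ 2 := one_le_pow₀ hZ1
        nlinarith [mul_nonneg (sub_nonneg.2 this) hl0.le]

lemma coeff_est {Z A : ℝ} {r : ℕ} (hZ : 0 ≤ Z) (hA : A ≤ 2 ^ (r + 1)) (n : ℕ) :
    A * Z ^ n / (n.factorial : ℝ) ≤ Real.exp ((r : ℝ) + 1 + Z) := by
  have h1 : Z ^ n / (n.factorial : ℝ) ≤ Real.exp Z := by
    have := Real.sum_le_exp_of_nonneg hZ (n + 1)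
    refine le_trans ?_ this
    exact Finset.single_le_sum (f := fun i => Z ^ i / (i.factorial : ℝ))
      (fun i _ => by positivity) (Finset.mem_range.2 (Nat.lt_succ_self n))
  have h2 : (2 : ℝ) ^ (r + 1) ≤ Real.exp ((r + 1 : ℕ) : ℝ) := by
    have : (2 : ℝ) ≤ Real.exp 1 := by
      have := Real.add_one_le_exp (1 : ℝ); linarith
    calc (2 : ℝ) ^ (r + 1) ≤ (Real.exp 1) ^ (r + 1) := by gcongr
      _ = _ := by rw [← Real.exp_nat_mul, mul_one]
  calc A * Z ^ n / (n.factorial : ℝ) = A * (Z ^ n / (n.factorial : ℝ)) := by ring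
    _ ≤ Real.exp ((r + 1 : ℕ) : ℝ) * Real.exp Z :=
        mul_le_mul (hA.trans h2) h1 (by positivity) (Real.exp_pos _).le
    _ = _ := by rw [← Real.exp_add]; push_cast; ring_nf

/-- **The truncated inverse.** For every `η` there is `C` such that for every `ℓ ≥ 1` there are a
function `R` (the barrier) and a polynomial `Q` of degree `≤ C e^{ηℓ}` close to `e^{-x} R x`. -/
theorem exists_psi {η : ℝ} (hη : 0 < η) (hη1 : η ≤ 1) : ∃ C : ℝ, 1 ≤ C ∧ ∀ l : ℝ, 1 ≤ l →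
    ∃ (R : ℝ → ℝ) (Q : Polynomial ℝ) (Z : ℝ), 1 ≤ Z ∧
      (∀ x, 0 ≤ R x ∧ R x ≤ 1) ∧
      (∀ x, |x| ≤ η * l / 16 → 1 - R x ≤ Real.exp (-l)) ∧
      (∀ x, Real.exp (-x) * R x ≤ C * Real.exp (η * l / 4) + Real.exp (3 * |x| - 37 * l)) ∧
      (Q.natDegree : ℝ) ≤ C * Real.exp (η * l) ∧
      (∀ n, |Q.coeff n| ≤ Real.exp (C * Real.exp (η * l))) ∧
      (∀ x, |Real.exp (-x) * R x - Q.eval x| ≤
        Real.exp (-(100 * Z ^ 2 * l) - 10 * l) * Real.exp (2 * (Z * |x|))) := by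
  refine ⟨10 ^ 9 / η ^ 5, ?_, ?_⟩
  · rw [le_div_iff₀ (by positivity)]
    have : η ^ 5 ≤ 1 := pow_le_one₀ hη.le hη1
    linarith
  intro l hl
  have hl0 : 0 < l := by linarith
  have hlη : 1 ≤ l / η := by rw [le_div_iff₀ hη]; linarith
  obtain ⟨B, hBdef⟩ : ∃ B : ℝ, B = 6 * l := ⟨_, rfl⟩
  have hB : 0 < B := by rw [hBdef]; positivity
  obtain ⟨M, hM1, hM2⟩ : ∃ M : ℕ, 720 * l / η ≤ (M : ℝ) ∧ (M : ℝ) ≤ 721 * l / η := by
    refine ⟨⌈720 * l / η⌉₊, Nat.le_ceil _, ?_⟩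
    have h1 : ((⌈720 * l / η⌉₊ : ℕ) : ℝ) < 720 * l / η + 1 := Nat.ceil_lt_add_one (by positivity)
    have h2 : 721 * l / η = 720 * l / η + l / η := by ring
    linarith
  have hE1 : 1 ≤ Real.exp (η * l / 25) := Real.one_le_exp (by positivity)
  obtain ⟨W, hW⟩ : ∃ W : ℝ, W = l * Real.exp (η * l / 25) := ⟨_, rfl⟩
  have hWp : 1 ≤ W := by
    rw [hW]
    calc (1 : ℝ) = 1 * 1 := by ring
      _ ≤ _ := by gcongr
  obtain ⟨r, hr1, hr2⟩ : ∃ r : ℕ, W ≤ (r : ℝ) ∧ (r : ℝ) ≤ 2 * W := by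
    refine ⟨⌈W⌉₊, Nat.le_ceil _, ?_⟩
    have h1 : ((⌈W⌉₊ : ℕ) : ℝ) < W + 1 := Nat.ceil_lt_add_one (by linarith)
    linarith
  obtain ⟨Z, hZdef⟩ : ∃ Z : ℝ, Z = 1 + r * (M / B) := ⟨_, rfl⟩
  have hZ1 : 1 ≤ Z := by
    have : 0 ≤ r * (M / B) := by positivity
    linarith
  have hMB : M / B ≤ 121 / η := by
    rw [div_le_div_iff₀ hB hη, hBdef]
    rw [le_div_iff₀ hη] at hM2
    nlinarith
  have hZ2 : Z ≤ 243 / η * W := by
    have h1 : r * (M / B) ≤ (2 * W) * (121 / η) := by gcongr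
    have h2 : (1 : ℝ) ≤ 1 / η * W := by
      have h3 : 1 ≤ 1 / η := by rw [le_div_iff₀ hη]; linarith
      calc (1 : ℝ) = 1 * 1 := by ring
        _ ≤ _ := by gcongr
    calc Z ≤ 1 / η * W + (2 * W) * (121 / η) := by linarith
      _ = 243 / η * W := by ring
  obtain ⟨k, hk1, hk2⟩ : ∃ k : ℕ, 220 * Z ^ 2 * l ≤ (k : ℝ) ∧ (k : ℝ) ≤ 221 * Z ^ 2 * l := by
    refine ⟨⌈220 * Z ^ 2 * l⌉₊, Nat.le_ceil _, ?_⟩
    have h1 : ((⌈220 * Z ^ 2 * l⌉₊ : ℕ) : ℝ) < 220 * Z ^ 2 * l + 1 :=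
      Nat.ceil_lt_add_one (by positivity)
    have h2 : 1 ≤ Z ^ 2 * l := by
      calc (1 : ℝ) = 1 ^ 2 * 1 := by ring
        _ ≤ _ := by gcongr
    linarith
  have hTP : TP (1 * (1 + 2 ^ r)) Z (fun x => ((Real.exp (-x) * bar B M r x : ℝ) : ℂ)) := by
    have h1 := (TP.exp 1 (-1)).mul (bar_TP hB M r)
    refine (h1.mono (by simp) (by simp [hZdef])).congr fun x => ?_
    push_cast
    ring_nf
  obtain ⟨Q, hQ1, hQ2, hQ3⟩ := hTP.approx (by linarith) (r + 1 + k)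
  have hA : (1 : ℝ) * (1 + 2 ^ r) ≤ 2 ^ (r + 1) := by
    have : (1 : ℝ) ≤ 2 ^ r := one_le_pow₀ (by norm_num)
    rw [pow_succ]; linarith
  have hN := deg_est hη hη1 hl hW hWp hr2 hZ1 hZ2 hk2
  refine ⟨bar B M r, Q, Z, hZ1, fun x => ⟨bar_nonneg _ _ _ _, bar_le_one _ _ _ _⟩,
    fun x hx => bar_small hη hη1 hl hBdef hM2 (hW ▸ hr1) hx,
    fun x => bar_exp_le hη hη1 hl hBdef hM1 (hW ▸ hr2) x, ?_, ?_, ?_⟩
  · have : (Q.natDegree : ℝ) ≤ ((r + 1 + k : ℕ) : ℝ) := by exact_mod_cast hQ1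
    push_cast at this
    linarith
  · intro n
    refine (hQ2 n).trans ((coeff_est (by linarith) hA n).trans
      (Real.exp_le_exp.2 ?_))
    have : (0 : ℝ) ≤ k := by positivity
    linarith
  · intro x
    refine (hQ3 x).trans ?_
    rw [← mul_assoc]
    exact mul_le_mul_of_nonneg_right (half_pow_est hl hZ1 hk1) (Real.exp_pos _).le

end P004G.H357
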