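import Mathlib

/-!
# P004G (helper357): finite exponential sums, their Taylor polynomials, and the barrier function

`TP A Z F` : `F x = ∑ c_i e^{z_i x}` with `∑ |c_i| ≤ A`, `|z_i| ≤ Z`.
-/

open Finset Real

namespace P004G.H357

/-- finite exponential sums -/
def TP (A Z : ℝ) (F : ℝ → ℂ) : Prop :=
  ∃ (ι : Type) (_ : Fintype ι) (c z : ι → ℂ), (∀ i, ‖z i‖ ≤ Z) ∧ ∑ i, ‖c i‖ ≤ A ∧
    ∀ x : ℝ, F x = ∑ i, c i * Complex.exp (z i * x)

lemma TP.mono {A Z A' Z' : ℝ} {F : ℝ → ℂ} (h : TP A Z F) (hA : A ≤ A') (hZ : Z ≤ Z') :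
    TP A' Z' F := by
  obtain ⟨ι, i1, c, z, h1, h2, h3⟩ := h
  exact ⟨ι, i1, c, z, fun i => (h1 i).trans hZ, h2.trans hA, h3⟩

lemma TP.congr {A Z : ℝ} {F G : ℝ → ℂ} (h : TP A Z F) (hFG : ∀ x, F x = G x) : TP A Z G := by
  have : F = G := funext hFG
  rwa [← this]

lemma TP.exp (c z : ℂ) : TP ‖c‖ ‖z‖ (fun x => c * Complex.exp (z * x)) :=
  ⟨Unit, inferInstance, fun _ => c, fun _ => z, by simp, by simp, by simp⟩

lemma TP.const (c : ℂ) : TP ‖c‖ 0 (fun _ => c) := by
  have := TP.exp c 0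
  simpa using this

lemma TP.add {A Z A' Z' : ℝ} {F G : ℝ → ℂ} (h : TP A Z F) (h' : TP A' Z' G) :
    TP (A + A') (max Z Z') (fun x => F x + G x) := by
  obtain ⟨ι, i1, c, z, h1, h2, h3⟩ := h
  obtain ⟨κ, i2, c', z', h1', h2', h3'⟩ := h'
  refine ⟨ι ⊕ κ, inferInstance, Sum.elim c c', Sum.elim z z', ?_, ?_, ?_⟩
  · rintro (i | i)
    · exact (h1 i).trans (le_max_left _ _)
    · exact (h1' i).trans (le_max_right _ _)
  · simp only [Fintype.sum_sum_type, Sum.elim_inl, Sum.elim_inr]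
    linarith
  · intro x
    simp only [Fintype.sum_sum_type, Sum.elim_inl, Sum.elim_inr, h3, h3']

lemma TP.mul {A Z A' Z' : ℝ} {F G : ℝ → ℂ} (h : TP A Z F) (h' : TP A' Z' G) :
    TP (A * A') (Z + Z') (fun x => F x * G x) := by
  obtain ⟨ι, i1, c, z, h1, h2, h3⟩ := h
  obtain ⟨κ, i2, c', z', h1', h2', h3'⟩ := h'
  refine ⟨ι × κ, inferInstance, fun i => c i.1 * c' i.2, fun i => z i.1 + z' i.2, ?_, ?_, ?_⟩
  · rintro ⟨i, j⟩
    exact (norm_add_le _ _).trans (add_le_add (h1 i) (h1' j))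
  · have e : ∑ i : ι × κ, ‖c i.1 * c' i.2‖ = (∑ i, ‖c i‖) * ∑ j, ‖c' j‖ := by
      rw [Fintype.sum_prod_type, Finset.sum_mul_sum]
      simp only [norm_mul]
    rw [e]
    exact mul_le_mul h2 h2' (Finset.sum_nonneg fun _ _ => norm_nonneg _)
      ((Finset.sum_nonneg fun _ _ => norm_nonneg _).trans h2)
  · intro x
    change F x * G x = _
    rw [h3, h3', Finset.sum_mul_sum, Fintype.sum_prod_type]
    refine Finset.sum_congr rfl fun i _ => Finset.sum_congr rfl fun j _ => ?_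
    simp only
    rw [add_mul, Complex.exp_add]
    ring

lemma TP.pow {A Z : ℝ} {F : ℝ → ℂ} (h : TP A Z F) (n : ℕ) :
    TP (A ^ n) (n * Z) (fun x => F x ^ n) := by
  induction n with
  | zero =>
    have := TP.const 1
    simpa using this
  | succ n ih =>
    have := ih.mul h
    refine (this.mono (le_of_eq ?_) (le_of_eq ?_)).congr fun x => ?_
    · ring
    · push_cast; ring
    · ring

lemma TP.cos (w : ℝ) : TP 1 |w| (fun x => (Real.cos (w * x) : ℂ)) := by
  have h := (TP.exp (1 / 2) (w * Complex.I)).add (TP.exp (1 / 2) (-w * Complex.I))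
  refine (h.mono (le_of_eq ?_) (le_of_eq ?_)).congr fun x => ?_
  · norm_num
  · simp
  · push_cast
    rw [Complex.cos]
    have e1 : (w : ℂ) * Complex.I * x = w * x * Complex.I := by ring
    have e2 : -(w : ℂ) * Complex.I * x = -(w * x) * Complex.I := by ring
    rw [e1, e2]
    ring

lemma TP.nonneg {A Z : ℝ} {F : ℝ → ℂ} (h : TP A Z F) : 0 ≤ A := by
  obtain ⟨ι, i1, c, z, h1, h2, h3⟩ := h
  exact (Finset.sum_nonneg fun _ _ => norm_nonneg _).trans h2

/-- the tail of the exponential series -/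
lemma exp_tail {y : ℝ} (hy : 0 ≤ y) (n : ℕ) :
    Real.exp y - ∑ m ∈ range n, y ^ m / m.factorial ≤ (1 / 2) ^ n * Real.exp (2 * y) := by
  have hs := NormedSpace.expSeries_div_summable (𝔸 := ℝ) y
  have hs2 := NormedSpace.expSeries_div_summable (𝔸 := ℝ) (2 * y)
  have e1 : Real.exp y = ∑' m : ℕ, y ^ m / m.factorial := by
    rw [Real.exp_eq_exp_ℝ, NormedSpace.exp_eq_tsum_div]
  have e2 : Real.exp (2 * y) = ∑' m : ℕ, (2 * y) ^ m / m.factorial := by
    rw [Real.exp_eq_exp_ℝ, NormedSpace.exp_eq_tsum_div]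
  rw [e1, e2, ← hs.sum_add_tsum_nat_add n, add_sub_cancel_left, ← tsum_mul_left]
  have h3 : ∑' m : ℕ, y ^ (m + n) / ((m + n).factorial : ℝ) ≤
      ∑' m : ℕ, (1 / 2) ^ n * ((2 * y) ^ (m + n) / ((m + n).factorial : ℝ)) := by
    refine ((summable_nat_add_iff n).2 hs).tsum_le_tsum ?_
      (((summable_nat_add_iff n).2 hs2).mul_left _)
    intro m
    rw [mul_pow, ← mul_div_assoc]
    gcongr
    have : (1 : ℝ) ≤ (1 / 2) ^ n * 2 ^ (m + n) := by
      rw [pow_add, mul_comm ((2 : ℝ) ^ m), ← mul_assoc, ← mul_pow]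
      norm_num
      exact one_le_pow₀ (by norm_num)
    calc y ^ (m + n) = 1 * y ^ (m + n) := by ring
      _ ≤ ((1 / 2) ^ n * 2 ^ (m + n)) * y ^ (m + n) := by gcongr
      _ = _ := by ring
  refine h3.trans ?_
  rw [tsum_mul_left, tsum_mul_left]
  refine mul_le_mul_of_nonneg_left ?_ (by positivity)
  rw [← hs2.sum_add_tsum_nat_add n]
  have : 0 ≤ ∑ m ∈ range n, (2 * y) ^ m / (m.factorial : ℝ) :=
    Finset.sum_nonneg fun _ _ => by positivity
  linarith

/-- Taylor polynomials of exponential sums -/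
theorem TP.approx {A Z : ℝ} {f : ℝ → ℝ} (h : TP A Z (fun x => (f x : ℂ))) (hZ : 0 ≤ Z) (N : ℕ) :
    ∃ Q : Polynomial ℝ, Q.natDegree ≤ N ∧ (∀ n, |Q.coeff n| ≤ A * Z ^ n / n.factorial) ∧
      ∀ x : ℝ, |f x - Q.eval x| ≤ A * ((1 / 2) ^ (N + 1) * Real.exp (2 * (Z * |x|))) := by
  classical
  have hA := h.nonneg
  obtain ⟨ι, i1, c, z, h1, h2, h3⟩ := h
  refine ⟨∑ n ∈ range (N + 1), Polynomial.monomial n ((∑ i, c i * z i ^ n).re / n.factorial),
    ?_, ?_, ?_⟩
  · refine Polynomial.natDegree_sum_le_of_forall_le _ _ fun n hn => ?_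
    exact (Polynomial.natDegree_monomial_le _).trans (by simpa [Nat.lt_succ_iff] using hn)
  · intro n
    rw [Polynomial.finsetSum_coeff]
    simp only [Polynomial.coeff_monomial]
    rw [Finset.sum_ite_eq']
    have hb : |(∑ i, c i * z i ^ n).re| ≤ A * Z ^ n := by
      refine (Complex.abs_re_le_norm _).trans ((norm_sum_le _ _).trans ?_)
      calc ∑ i, ‖c i * z i ^ n‖ ≤ ∑ i, ‖c i‖ * Z ^ n := by
            refine Finset.sum_le_sum fun i _ => ?_
            rw [norm_mul, norm_pow]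
            gcongr
            exact h1 i
        _ = (∑ i, ‖c i‖) * Z ^ n := by rw [Finset.sum_mul]
        _ ≤ _ := by gcongr
    split_ifs
    · rw [abs_div, Nat.abs_cast]
      gcongr
    · rw [abs_zero]
      positivity
  · intro x
    have e1 : (f x : ℂ) - ∑ n ∈ range (N + 1), (∑ i, c i * z i ^ n) / n.factorial * x ^ n =
        ∑ i, c i * (Complex.exp (z i * x) -
          ∑ n ∈ range (N + 1), (z i * x) ^ n / n.factorial) := by
      have h3x : (f x : ℂ) = ∑ i, c i * Complex.exp (z i * x) := h3 x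
      rw [h3x]
      simp only [mul_sub, Finset.sum_sub_distrib, Finset.mul_sum, Finset.sum_mul,
        Finset.sum_div]
      congr 1
      rw [Finset.sum_comm]
      refine Finset.sum_congr rfl fun i _ => Finset.sum_congr rfl fun n _ => ?_
      ring
    have e2 : f x - Polynomial.eval x (∑ n ∈ range (N + 1),
        Polynomial.monomial n ((∑ i, c i * z i ^ n).re / n.factorial)) =
        ((f x : ℂ) - ∑ n ∈ range (N + 1), (∑ i, c i * z i ^ n) / n.factorial * x ^ n).re := by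
      rw [Polynomial.eval_finsetSum]
      simp only [Polynomial.eval_monomial]
      rw [Complex.sub_re, Complex.ofReal_re, Complex.re_sum]
      congr 1
      refine Finset.sum_congr rfl fun n _ => ?_
      have : ((∑ i, c i * z i ^ n) / n.factorial * (x : ℂ) ^ n) =
        (∑ i, c i * z i ^ n) * ((x ^ n / n.factorial : ℝ) : ℂ) := by
        push_cast; ring
      rw [this, Complex.re_mul_ofReal]
      ring
    rw [e2, e1]
    refine (Complex.abs_re_le_norm _).trans ((norm_sum_le _ _).trans ?_)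
    calc ∑ i, ‖c i * (Complex.exp (z i * x) -
          ∑ n ∈ range (N + 1), (z i * x) ^ n / n.factorial)‖
        ≤ ∑ i, ‖c i‖ * ((1 / 2) ^ (N + 1) * Real.exp (2 * (Z * |x|))) := by
          refine Finset.sum_le_sum fun i _ => ?_
          rw [norm_mul]
          gcongr
          refine (Complex.norm_exp_sub_sum_le_exp_norm_sub_sum _ _).trans
            ((exp_tail (norm_nonneg _) _).trans ?_)
          have : ‖z i * (x : ℂ)‖ ≤ Z * |x| := by
            rw [norm_mul, Complex.norm_real, Real.norm_eq_abs]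
            gcongr
            exact h1 i
          gcongr
      _ = (∑ i, ‖c i‖) * ((1 / 2) ^ (N + 1) * Real.exp (2 * (Z * |x|))) := by
          rw [Finset.sum_mul]
      _ ≤ _ := by gcongr

end P004G.H357
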